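import Vale.Agent.P224.R2.H166.Stat
import Vale.Agent.P224.R2.H433.Apx

/-!
The static certificate for `m = 3` in the form used by the law of the certificate: coefficient lists
over the rationals, rows with real coefficients.
-/

namespace Vale.Agent.P224.R2.H166

open Vale.Agent.P224.UE Vale.Agent.P224.POS Vale.Agent.P224.PO
open Vale.Agent.P224.R2.H433 (rl rows rowL sy q1 q2 q3 w0 ws wt)

noncomputable section

/-- an integer list over `10 ^ 10` -/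
def qL (L : List Int) : List ℚ := L.map fun a => (a : ℚ) / 10 ^ 10

lemma ev_qL (L : List Int) (s : ℝ) : H433.ev (rl (qL L)) s = horR L s / 10 ^ 10 := by
  induction L with
  | nil =>
    have e1 : H433.ev (rl (qL [])) s = 0 := rfl
    have e2 : horR [] s = 0 := rfl
    rw [e1, e2, zero_div]
  | cons a L ih =>
    have e1 : H433.ev (rl (qL (a :: L))) s
      = (((a : ℚ) / 10 ^ 10 : ℚ) : ℝ) + s * H433.ev (rl (qL L)) s := rfl
    have e2 : horR (a :: L) s = (a : ℝ) + s * horR L s := rfl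
    rw [e1, e2, ih]
    push_cast
    ring

/-- integer terms over `63 * 10 ^ 10` -/
def tL (L : List (Int × Nat × Nat)) : List (ℝ × ℕ × ℕ) :=
  L.map fun x => ((x.1 : ℝ) / (63 * 10 ^ 10), x.2.1, x.2.2)

lemma rowL_q1 (L : List (Int × Nat × Nat)) (s x y c : ℝ) :
    rowL q1 (tL L) s x y c = 1 / 2 * (s1R (fR L s x) (fsR L s x) (ftR L s x) s x y c
      + s1R (fR L s y) (fsR L s y) (ftR L s y) s y x c) / (63 * 10 ^ 10) := by
  induction L with
  | nil =>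
    have e1 : rowL q1 (tL []) s x y c = 0 := rfl
    have f1 : ∀ z, fR [] s z = 0 := fun _ => rfl
    have f2 : ∀ z, fsR [] s z = 0 := fun _ => rfl
    have f3 : ∀ z, ftR [] s z = 0 := fun _ => rfl
    rw [e1, f1, f1, f2, f2, f3, f3]
    unfold s1R
    ring
  | cons k L ih =>
    have e1 : rowL q1 (tL (k :: L)) s x y c = (k.1 : ℝ) / (63 * 10 ^ 10)
      * sy (q1 k.2.1 k.2.2) s x y c + rowL q1 (tL L) s x y c := rfl
    have f1 : ∀ z, fR (k :: L) s z = (k.1 : ℝ) * ((1 - s) ^ k.2.1 * z ^ k.2.2) + fR L s z :=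
      fun _ => rfl
    have f2 : ∀ z, fsR (k :: L) s z
      = -(k.1 : ℝ) * k.2.1 * ((1 - s) ^ (k.2.1 - 1) * z ^ k.2.2) + fsR L s z := fun _ => rfl
    have f3 : ∀ z, ftR (k :: L) s z
      = (k.1 : ℝ) * k.2.2 * ((1 - s) ^ k.2.1 * z ^ (k.2.2 - 1)) + ftR L s z := fun _ => rfl
    rw [e1, f1, f1, f2, f2, f3, f3, ih]
    unfold s1R sy q1 w0 ws wt
    ring

lemma rowL_q2 (L : List (Int × Nat × Nat)) (s x y c : ℝ) :
    rowL q2 (tL L) s x y c = 1 / 2 * (s2R (fR L s x) (fsR L s x) (ftR L s x) s x y c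
      + s2R (fR L s y) (fsR L s y) (ftR L s y) s y x c) / (63 * 10 ^ 10) := by
  induction L with
  | nil =>
    have e1 : rowL q2 (tL []) s x y c = 0 := rfl
    have f1 : ∀ z, fR [] s z = 0 := fun _ => rfl
    have f2 : ∀ z, fsR [] s z = 0 := fun _ => rfl
    have f3 : ∀ z, ftR [] s z = 0 := fun _ => rfl
    rw [e1, f1, f1, f2, f2, f3, f3]
    unfold s2R
    ring
  | cons k L ih =>
    have e1 : rowL q2 (tL (k :: L)) s x y c = (k.1 : ℝ) / (63 * 10 ^ 10)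
      * sy (q2 k.2.1 k.2.2) s x y c + rowL q2 (tL L) s x y c := rfl
    have f1 : ∀ z, fR (k :: L) s z = (k.1 : ℝ) * ((1 - s) ^ k.2.1 * z ^ k.2.2) + fR L s z :=
      fun _ => rfl
    have f2 : ∀ z, fsR (k :: L) s z
      = -(k.1 : ℝ) * k.2.1 * ((1 - s) ^ (k.2.1 - 1) * z ^ k.2.2) + fsR L s z := fun _ => rfl
    have f3 : ∀ z, ftR (k :: L) s z
      = (k.1 : ℝ) * k.2.2 * ((1 - s) ^ k.2.1 * z ^ (k.2.2 - 1)) + ftR L s z := fun _ => rfl
    rw [e1, f1, f1, f2, f2, f3, f3, ih]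
    unfold s2R sy q2 w0 ws wt
    ring

lemma rowL_q3 (L : List (Int × Nat × Nat)) (s x y c : ℝ) :
    rowL q3 (tL L) s x y c = 1 / 2 * (ccR (fR L s x) (fsR L s x) (ftR L s x) s x y c
      + ccR (fR L s y) (fsR L s y) (ftR L s y) s y x c) / (63 * 10 ^ 10) := by
  induction L with
  | nil =>
    have e1 : rowL q3 (tL []) s x y c = 0 := rfl
    have f1 : ∀ z, fR [] s z = 0 := fun _ => rfl
    have f2 : ∀ z, fsR [] s z = 0 := fun _ => rfl
    have f3 : ∀ z, ftR [] s z = 0 := fun _ => rfl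
    rw [e1, f1, f1, f2, f2, f3, f3]
    unfold ccR
    ring
  | cons k L ih =>
    have e1 : rowL q3 (tL (k :: L)) s x y c = (k.1 : ℝ) / (63 * 10 ^ 10)
      * sy (q3 k.2.1 k.2.2) s x y c + rowL q3 (tL L) s x y c := rfl
    have f1 : ∀ z, fR (k :: L) s z = (k.1 : ℝ) * ((1 - s) ^ k.2.1 * z ^ k.2.2) + fR L s z :=
      fun _ => rfl
    have f2 : ∀ z, fsR (k :: L) s z
      = -(k.1 : ℝ) * k.2.1 * ((1 - s) ^ (k.2.1 - 1) * z ^ k.2.2) + fsR L s z := fun _ => rfl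
    have f3 : ∀ z, ftR (k :: L) s z
      = (k.1 : ℝ) * k.2.2 * ((1 - s) ^ k.2.1 * z ^ (k.2.2 - 1)) + ftR L s z := fun _ => rfl
    rw [e1, f1, f1, f2, f2, f3, f3, ih]
    unfold ccR sy q3 w0 ws wt
    ring

/-- the scalars -/
def muQ : ℚ := 41876832228 / (63 * 10 ^ 10)
/-- the scalars -/
def k1Q : ℚ := 693830578896 / (63 * 10 ^ 10)
/-- the scalars -/
def k2Q : ℚ := 111010457880 / (63 * 10 ^ 10)

/-- **The static certificate for `m = 3`**: the room `1 / 1000` is in front of the reference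
quadratic form; `W1 = 0.10585`, `W2 = 0.13424`. -/
theorem cert3 {s x y c : ℝ} (h1 : s ^ 2 + 2 * y ^ 2 ≤ 1) (h2 : 2 * x ^ 2 + c ^ 2 ≤ 1)
    (hg : 0 ≤ 1 - s ^ 2 - 2 * x ^ 2 - 2 * y ^ 2 - c ^ 2 + (s * c - 2 * x * y) ^ 2) :
    (10000000 / 10 ^ 10) * ((c - s - (x + y) / 2) ^ 2 + 4 * (y - x) ^ 2)
      ≤ H433.SS (H433.ev (rl (qL alL)) s) (H433.ev (rl (qL beL)) s) (H433.ev (rl (qL b0L)) s)
          (H433.ev (rl (qL b1L)) s) (H433.ev (rl (qL b2L)) s) (H433.ev (rl (qL b3L)) s)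
          (H433.ev (rl (qL b4L)) s) (H433.ev (rl (qL b5L)) s) s x y c
        + rows (tL fL) (tL gL) (tL hL) s x y c + (muQ : ℝ) * c - (k1Q : ℝ) * s ^ 3
        - (k2Q : ℝ) * (s * c ^ 2) - (1058500000 / 10 ^ 10) * (c - s - (x + y) / 2) ^ 2
        - 4 * (1342400000 / 10 ^ 10) * (y - x) ^ 2 := by
  have h := stat_int h1 h2 hg
  obtain ⟨v0, v1, v2, v3⟩ := vT_val s x y c
  unfold P at h
  rw [ev_mkP _ _ _ _ _ _ _ _ _ _ _ _ _ _ _ _ _ s x y c v0 v1 v2 v3] at h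
  unfold rows
  rw [rowL_q1, rowL_q2, rowL_q3]
  simp only [ev_qL]
  unfold muQ k1Q k2Q
  have e : ∀ a b n0 n1 n2 n3 n4 n5 : ℝ, H433.SS (a / 10 ^ 10) (b / 10 ^ 10) (n0 / 10 ^ 10)
      (n1 / 10 ^ 10) (n2 / 10 ^ 10) (n3 / 10 ^ 10) (n4 / 10 ^ 10) (n5 / 10 ^ 10) s x y c
      = sffR a b n0 n1 n2 n3 n4 n5 s x y c / 10 ^ 10 := by
    intro a b n0 n1 n2 n3 n4 n5
    unfold H433.SS sffR
    ring
  rw [e]
  push_cast at h ⊢
  linarith

end

end Vale.Agent.P224.R2.H166
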