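import Vale.Agent.P224.POS.PE

/-!
The polynomial of the static certificate for `m = 3` as an expression built from lists of integers,
and its value at real arguments.

Variables: 0 = s, 1 = τ, 2 = u, 3 = v; `ta = τ - u`, `pi = τ + u`, `c = s + τ + v`.
-/

namespace Vale.Agent.P224.R2.H166

open Vale.Agent.P224.POS

noncomputable section

/-! ### Expressions -/

/-- polynomial in `s` -/
def hor (L : List Int) : PE :=
  List.rec (motive := fun _ => PE) (.c 0) (fun a _ ih => .add (.c a) (.mul (.v 0) ih)) L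

/-- `c` -/
def cE : PE := .add (.v 0) (.add (.v 1) (.v 3))
/-- `ta` -/
def taE : PE := .sub (.v 1) (.v 2)
/-- `pi` -/
def piE : PE := .add (.v 1) (.v 2)
/-- `1 - s` -/
def omE : PE := .sub (.c 1) (.v 0)

/-- twice the integrated density -/
def sffE (al be b0 b1 b2 b3 b4 b5 : List Int) : PE :=
  .sub (.add (.mul (.add (hor al) (.mul (.mul (.c 2) taE) (hor be))) (.pow (.add (.v 3) (.v 2)) 2))
      (.mul (.add (hor al) (.mul (.mul (.c 2) piE) (hor be))) (.pow (.sub (.v 3) (.v 2)) 2)))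
    (.mul (.mul (.c 8) (.pow (.v 2) 2))
      (.add (.add (.add (hor b0) (.mul (hor b1) (.mul (.c 2) (.v 1))))
          (.add (.mul (hor b2) (.mul piE taE))
            (.mul (hor b3) (.mul (.mul piE taE) (.mul (.c 2) (.v 1))))))
        (.mul cE (.add (hor b4) (.mul (hor b5) (.mul (.c 2) (.v 1)))))))

/-- the function `∑ k (1 - s) ^ a θ ^ b` -/
def fE (L : List (Int × Nat × Nat)) (th : PE) : PE :=
  List.rec (motive := fun _ => PE) (.c 0)
    (fun x _ ih => .add (.mul (.c x.1) (.mul (.pow omE x.2.1) (.pow th x.2.2))) ih) L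

/-- its derivative with respect to `s` -/
def fsE (L : List (Int × Nat × Nat)) (th : PE) : PE :=
  List.rec (motive := fun _ => PE) (.c 0)
    (fun x _ ih => .add (.mul (.mul (.c (Int.neg x.1)) (.c (Int.ofNat x.2.1)))
      (.mul (.pow omE (Nat.pred x.2.1)) (.pow th x.2.2))) ih) L

/-- its derivative with respect to `θ` -/
def ftE (L : List (Int × Nat × Nat)) (th : PE) : PE :=
  List.rec (motive := fun _ => PE) (.c 0)
    (fun x _ ih => .add (.mul (.mul (.c x.1) (.c (Int.ofNat x.2.2)))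
      (.mul (.pow omE x.2.1) (.pow th (Nat.pred x.2.2)))) ih) L

/-- `s θ + φ c` -/
def stE (th ph : PE) : PE := .add (.mul (.v 0) th) (.mul ph cE)

/-- the first row -/
def s1E (L : List (Int × Nat × Nat)) (th ph : PE) : PE :=
  .sub (.sub (.mul (fsE L th) (.sub (.sub (.c 1) (.pow (.v 0) 2)) (.mul (.c 2) (.pow ph 2))))
    (.mul (ftE L th) (stE th ph))) (.mul (.mul (.c 3) (.v 0)) (fE L th))

/-- twice the second row -/
def s2E (L : List (Int × Nat × Nat)) (th ph : PE) : PE :=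
  .sub (.sub (.mul (ftE L th) (.sub (.sub (.c 1) (.mul (.c 2) (.pow th 2))) (.pow cE 2)))
    (.mul (.mul (.c 2) (fsE L th)) (stE th ph))) (.mul (.mul (.c 6) th) (fE L th))

/-- the mixed row -/
def ccE (L : List (Int × Nat × Nat)) (th ph : PE) : PE :=
  .sub (.sub (.mul (ftE L th) (.add (.mul ph (.sub (.c 1) (.mul (.c 2) (.pow th 2))))
      (.mul (.mul cE (.v 0)) th)))
    (.mul (fsE L th) (.add (.mul (.mul (.mul (.c 2) ph) (.v 0)) th)
      (.mul cE (.sub (.c 1) (.pow (.v 0) 2))))))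
    (.mul (.mul (.c 3) (.sub (.mul (.mul (.c 2) ph) th) (.mul cE (.v 0)))) (fE L th))

/-- the polynomial: `8` times
`63 (density - w1 v ^ 2 - 16 w2 u ^ 2) + rows + mu c - k1 s ^ 3 - k2 s c ^ 2` -/
def mkP (al be b0 b1 b2 b3 b4 b5 : List Int) (f g h : List (Int × Nat × Nat))
    (w1 w2 mu k1 k2 : Int) : PE :=
  .add (.add (.mul (.c 252) (.sub (sffE al be b0 b1 b2 b3 b4 b5)
        (.add (.mul (.c (Int.mul 2 w1)) (.pow (.v 3) 2))
          (.mul (.c (Int.mul 32 w2)) (.pow (.v 2) 2)))))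
      (.mul (.c 4) (.add (.add (s1E f taE piE) (s1E f piE taE))
        (.add (ccE h taE piE) (ccE h piE taE)))))
    (.add (.mul (.c 2) (.add (s2E g taE piE) (s2E g piE taE)))
      (.mul (.c 8) (.sub (.sub (.mul (.c mu) cE) (.mul (.c k1) (.pow (.v 0) 3)))
        (.mul (.c k2) (.mul (.v 0) (.pow cE 2))))))

/-! ### Real values -/

/-- polynomial in `s` -/
def horR (L : List Int) (s : ℝ) : ℝ :=
  List.rec (motive := fun _ => ℝ) 0 (fun a _ ih => (a : ℝ) + s * ih) L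

/-- the integrated density, in the variables `s, ta, pi, c` -/
def sffR (al be b0 b1 b2 b3 b4 b5 : ℝ) (s ta pi c : ℝ) : ℝ :=
  1 / 2 * ((al + 2 * ta * be) * (c - s - ta) ^ 2 + (al + 2 * pi * be) * (c - s - pi) ^ 2)
    - (pi - ta) ^ 2 * (b0 + b1 * (ta + pi) + b2 * (pi * ta) + b3 * (pi * ta * (ta + pi))
      + c * (b4 + b5 * (ta + pi)))

/-- `∑ k (1 - s) ^ a θ ^ b` -/
def fR (L : List (Int × Nat × Nat)) (s th : ℝ) : ℝ :=
  List.rec (motive := fun _ => ℝ) 0
    (fun x _ ih => (x.1 : ℝ) * ((1 - s) ^ x.2.1 * th ^ x.2.2) + ih) L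

/-- its derivative with respect to `s` -/
def fsR (L : List (Int × Nat × Nat)) (s th : ℝ) : ℝ :=
  List.rec (motive := fun _ => ℝ) 0
    (fun x _ ih => -(x.1 : ℝ) * x.2.1 * ((1 - s) ^ (x.2.1 - 1) * th ^ x.2.2) + ih) L

/-- its derivative with respect to `θ` -/
def ftR (L : List (Int × Nat × Nat)) (s th : ℝ) : ℝ :=
  List.rec (motive := fun _ => ℝ) 0
    (fun x _ ih => (x.1 : ℝ) * x.2.2 * ((1 - s) ^ x.2.1 * th ^ (x.2.2 - 1)) + ih) L

/-- the first row, for a function with value `f` and derivatives `fs`, `ft` -/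
def s1R (f fs ft s th ph c : ℝ) : ℝ :=
  fs * (1 - s ^ 2 - 2 * ph ^ 2) - ft * (s * th + ph * c) - 3 * s * f

/-- the second row -/
def s2R (f fs ft s th ph c : ℝ) : ℝ :=
  -fs * (s * th + ph * c) + ft * (1 - 2 * th ^ 2 - c ^ 2) / 2 - 3 * th * f

/-- the mixed row -/
def ccR (f fs ft s th ph c : ℝ) : ℝ :=
  -fs * (2 * ph * s * th + c * (1 - s ^ 2)) + ft * (ph * (1 - 2 * th ^ 2) + c * s * th)
    - 3 * (2 * ph * th - c * s) * f

/-! ### The value of the expression -/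

section

variable (F : ℕ → ℝ)

lemma ev_hor (L : List Int) : PE.ev F (hor L) = horR L (F 0) := by
  induction L with
  | nil =>
    have e : hor [] = PE.c 0 := rfl
    rw [e, PE.ev_c, Int.cast_zero]; rfl
  | cons a L ih =>
    have e : hor (a :: L) = .add (.c a) (.mul (.v 0) (hor L)) := rfl
    have e2 : horR (a :: L) (F 0) = (a : ℝ) + F 0 * horR L (F 0) := rfl
    rw [e, e2, PE.ev_add, PE.ev_c, PE.ev_mul, PE.ev_v, ih]

lemma ev_omE : PE.ev F omE = 1 - F 0 := by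
  unfold omE; rw [PE.ev_sub, PE.ev_c, PE.ev_v, Int.cast_one]

lemma ev_cE : PE.ev F cE = F 0 + (F 1 + F 3) := by
  unfold cE; rw [PE.ev_add, PE.ev_add, PE.ev_v, PE.ev_v, PE.ev_v]

lemma ev_taE : PE.ev F taE = F 1 - F 2 := by
  unfold taE; rw [PE.ev_sub, PE.ev_v, PE.ev_v]

lemma ev_piE : PE.ev F piE = F 1 + F 2 := by
  unfold piE; rw [PE.ev_add, PE.ev_v, PE.ev_v]

lemma ev_fE (L : List (Int × Nat × Nat)) (th : PE) :
    PE.ev F (fE L th) = fR L (F 0) (PE.ev F th) := by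
  induction L with
  | nil =>
    have e : fE [] th = PE.c 0 := rfl
    rw [e, PE.ev_c, Int.cast_zero]; rfl
  | cons x L ih =>
    have e : fE (x :: L) th
      = .add (.mul (.c x.1) (.mul (.pow omE x.2.1) (.pow th x.2.2))) (fE L th) := rfl
    have e2 : fR (x :: L) (F 0) (PE.ev F th)
      = (x.1 : ℝ) * ((1 - F 0) ^ x.2.1 * PE.ev F th ^ x.2.2) + fR L (F 0) (PE.ev F th) := rfl
    rw [e, e2, PE.ev_add, PE.ev_mul, PE.ev_mul, PE.ev_c, PE.ev_pow, PE.ev_pow, ih, ev_omE]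

lemma ev_fsE (L : List (Int × Nat × Nat)) (th : PE) :
    PE.ev F (fsE L th) = fsR L (F 0) (PE.ev F th) := by
  induction L with
  | nil =>
    have e : fsE [] th = PE.c 0 := rfl
    rw [e, PE.ev_c, Int.cast_zero]; rfl
  | cons x L ih =>
    have e : fsE (x :: L) th
      = .add (.mul (.mul (.c (-x.1)) (.c (x.2.1 : ℤ)))
        (.mul (.pow omE (x.2.1 - 1)) (.pow th x.2.2))) (fsE L th) := rfl
    have e2 : fsR (x :: L) (F 0) (PE.ev F th)
      = -(x.1 : ℝ) * x.2.1 * ((1 - F 0) ^ (x.2.1 - 1) * PE.ev F th ^ x.2.2)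
        + fsR L (F 0) (PE.ev F th) := rfl
    rw [e, e2, PE.ev_add, PE.ev_mul, PE.ev_mul, PE.ev_mul, PE.ev_c, PE.ev_c, PE.ev_pow, PE.ev_pow,
      ih, ev_omE]
    push_cast
    ring

lemma ev_ftE (L : List (Int × Nat × Nat)) (th : PE) :
    PE.ev F (ftE L th) = ftR L (F 0) (PE.ev F th) := by
  induction L with
  | nil =>
    have e : ftE [] th = PE.c 0 := rfl
    rw [e, PE.ev_c, Int.cast_zero]; rfl
  | cons x L ih =>
    have e : ftE (x :: L) th
      = .add (.mul (.mul (.c x.1) (.c (x.2.2 : ℤ)))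
        (.mul (.pow omE x.2.1) (.pow th (x.2.2 - 1)))) (ftE L th) := rfl
    have e2 : ftR (x :: L) (F 0) (PE.ev F th)
      = (x.1 : ℝ) * x.2.2 * ((1 - F 0) ^ x.2.1 * PE.ev F th ^ (x.2.2 - 1))
        + ftR L (F 0) (PE.ev F th) := rfl
    rw [e, e2, PE.ev_add, PE.ev_mul, PE.ev_mul, PE.ev_mul, PE.ev_c, PE.ev_c, PE.ev_pow, PE.ev_pow,
      ih, ev_omE]
    push_cast
    ring

/-- **The value of the polynomial** in the variables `s, ta, pi, c`. -/
theorem ev_mkP (al be b0 b1 b2 b3 b4 b5 : List Int) (f g h : List (Int × Nat × Nat))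
    (w1 w2 mu k1 k2 : Int) (s ta pi c : ℝ) (h0 : F 0 = s) (h1 : F 1 = (ta + pi) / 2)
    (h2 : F 2 = (pi - ta) / 2) (h3 : F 3 = c - s - (ta + pi) / 2) :
    PE.ev F (mkP al be b0 b1 b2 b3 b4 b5 f g h w1 w2 mu k1 k2)
      = 8 * (63 * (sffR (horR al s) (horR be s) (horR b0 s) (horR b1 s) (horR b2 s) (horR b3 s)
              (horR b4 s) (horR b5 s) s ta pi c
            - w1 * (c - s - (ta + pi) / 2) ^ 2 - 4 * w2 * (pi - ta) ^ 2)
          + 1 / 2 * (s1R (fR f s ta) (fsR f s ta) (ftR f s ta) s ta pi c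
            + s1R (fR f s pi) (fsR f s pi) (ftR f s pi) s pi ta c)
          + 1 / 2 * (s2R (fR g s ta) (fsR g s ta) (ftR g s ta) s ta pi c
            + s2R (fR g s pi) (fsR g s pi) (ftR g s pi) s pi ta c)
          + 1 / 2 * (ccR (fR h s ta) (fsR h s ta) (ftR h s ta) s ta pi c
            + ccR (fR h s pi) (fsR h s pi) (ftR h s pi) s pi ta c)
          + mu * c - k1 * s ^ 3 - k2 * (s * c ^ 2)) := by
  have ht : PE.ev F taE = ta := by rw [ev_taE, h1, h2]; ring
  have hp : PE.ev F piE = pi := by rw [ev_piE, h1, h2]; ring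
  have hc : PE.ev F cE = c := by rw [ev_cE, h0, h1, h3]; ring
  have e1 : ((Int.mul 2 w1 : ℤ) : ℝ) = 2 * (w1 : ℝ) := by
    have : Int.mul 2 w1 = 2 * w1 := rfl
    rw [this]; push_cast; ring
  have e2 : ((Int.mul 32 w2 : ℤ) : ℝ) = 32 * (w2 : ℝ) := by
    have : Int.mul 32 w2 = 32 * w2 := rfl
    rw [this]; push_cast; ring
  unfold mkP sffE s1E s2E ccE stE
  simp only [PE.ev_add, PE.ev_sub, PE.ev_mul, PE.ev_pow, PE.ev_c, PE.ev_v, ev_hor, ev_fE, ev_fsE,
    ev_ftE, ht, hp, hc, h0, h1, h2, h3, e1, e2]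
  unfold sffR s1R s2R ccR
  push_cast
  ring

end

end

end Vale.Agent.P224.R2.H166
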