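import Vale.Agent.P224.R2.H166.K0

/-!
The static certificate for `m = 3` for real numbers `s, x, y, c` (`x = t / √2`, `y = p / √2`) with
nonnegative Gram determinant.
-/

namespace Vale.Agent.P224.R2.H166

open Vale.Agent.P224.UE Vale.Agent.P224.POS Vale.Agent.P224.PO
open scoped RealInnerProductSpace

noncomputable section

/-- four numbers with a nonnegative Gram determinant are the inner products of two orthonormal
pairs -/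
lemma exists_vec {s t p c : ℝ} (h1 : s ^ 2 + p ^ 2 ≤ 1) (h2 : t ^ 2 + c ^ 2 ≤ 1)
    (hg : 0 ≤ 1 - s ^ 2 - t ^ 2 - p ^ 2 - c ^ 2 + (s * c - t * p) ^ 2) :
    ∃ x N y w : EuclideanSpace ℝ (Fin 4), ‖x‖ = 1 ∧ ‖N‖ = 1 ∧ ‖y‖ = 1 ∧ ‖w‖ = 1 ∧
      ⟪x, N⟫ = 0 ∧ ⟪y, w⟫ = 0 ∧ ⟪x, y⟫ = s ∧ ⟪x, w⟫ = t ∧ ⟪N, y⟫ = p ∧ ⟪N, w⟫ = c := by
  have hA : 0 ≤ 1 - s ^ 2 - p ^ 2 := by linarith
  have hB : 0 ≤ 1 - t ^ 2 - c ^ 2 := by linarith
  have hD : (s * t + p * c) ^ 2 ≤ (1 - s ^ 2 - p ^ 2) * (1 - t ^ 2 - c ^ 2) := by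
    nlinarith [hg]
  obtain ⟨a, b, ha, hab, hb⟩ : ∃ a b : ℝ, a ^ 2 = 1 - s ^ 2 - p ^ 2 ∧ a * b = -(s * t + p * c) ∧
      b ^ 2 ≤ 1 - t ^ 2 - c ^ 2 := by
    rcases hA.eq_or_lt with h0 | h0
    · refine ⟨0, 0, by rw [← h0]; ring, ?_, by rw [zero_pow two_ne_zero]; exact hB⟩
      rw [← h0, zero_mul] at hD
      have : s * t + p * c = 0 := by
        have := sq_nonneg (s * t + p * c)
        exact pow_eq_zero_iff two_ne_zero |>.1 (le_antisymm hD this)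
      rw [this]; ring
    · have hs : (√(1 - s ^ 2 - p ^ 2)) ^ 2 = 1 - s ^ 2 - p ^ 2 := Real.sq_sqrt hA
      have hp : 0 < √(1 - s ^ 2 - p ^ 2) := Real.sqrt_pos.2 h0
      refine ⟨√(1 - s ^ 2 - p ^ 2), -(s * t + p * c) / √(1 - s ^ 2 - p ^ 2), hs, ?_, ?_⟩
      · field_simp
      · rw [div_pow, hs, div_le_iff₀ h0, neg_sq]
        linarith
  obtain ⟨d, hd⟩ : ∃ d : ℝ, d ^ 2 = 1 - t ^ 2 - c ^ 2 - b ^ 2 :=
    ⟨√(1 - t ^ 2 - c ^ 2 - b ^ 2), Real.sq_sqrt (by linarith)⟩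
  refine ⟨!₂[1, 0, 0, 0], !₂[0, 1, 0, 0], !₂[s, p, a, 0], !₂[t, c, b, d], ?_, ?_, ?_, ?_, ?_, ?_,
    ?_, ?_, ?_, ?_⟩
  · rw [EuclideanSpace.norm_eq, Fin.sum_univ_four]; simp
  · rw [EuclideanSpace.norm_eq, Fin.sum_univ_four]; simp
  · rw [EuclideanSpace.norm_eq, Fin.sum_univ_four, Real.sqrt_eq_one]
    simp
    linarith
  · rw [EuclideanSpace.norm_eq, Fin.sum_univ_four, Real.sqrt_eq_one]
    simp
    linarith
  all_goals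
    rw [PiLp.inner_apply, Fin.sum_univ_four]
    simp
  linarith

/-- **The static certificate**, integer form. -/
theorem stat_int {s x y c : ℝ} (h1 : s ^ 2 + 2 * y ^ 2 ≤ 1) (h2 : 2 * x ^ 2 + c ^ 2 ≤ 1)
    (hg : 0 ≤ 1 - s ^ 2 - 2 * x ^ 2 - 2 * y ^ 2 - c ^ 2 + (s * c - 2 * x * y) ^ 2) :
    0 ≤ PE.ev (vT 0 s (√2 * x) (√2 * y) c) P := by
  have h4 : √(2 : ℝ) ^ 2 = 2 := Real.sq_sqrt (by norm_num)
  have hx2 : (√2 * x) ^ 2 = 2 * x ^ 2 := by rw [mul_pow, h4]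
  have hy2 : (√2 * y) ^ 2 = 2 * y ^ 2 := by rw [mul_pow, h4]
  have hxy : √2 * x * (√2 * y) = 2 * x * y := by
    have : √2 * x * (√2 * y) = √2 ^ 2 * (x * y) := by ring
    rw [this, h4]; ring
  obtain ⟨a, n, b, k, ha, hn, hb, hk, h5, h6, e1, e2, e3, e4⟩ :=
    exists_vec (s := s) (t := √2 * x) (p := √2 * y) (c := c) (by rw [hy2]; exact h1)
      (by rw [hx2]; exact h2) (by rw [hx2, hy2, hxy]; exact hg)
  have := pos ha hn hb hk h5 h6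
  rwa [e1, e2, e3, e4] at this

/-- the values of the variables -/
lemma vT_val (s x y c : ℝ) : vT 0 s (√2 * x) (√2 * y) c 0 = s ∧
    vT 0 s (√2 * x) (√2 * y) c 1 = (x + y) / 2 ∧ vT 0 s (√2 * x) (√2 * y) c 2 = (y - x) / 2 ∧
    vT 0 s (√2 * x) (√2 * y) c 3 = c - s - (x + y) / 2 := by
  have h0 : √(2 : ℝ) ≠ 0 := by positivity
  have e1 : (√2 * x + √2 * y) / (2 * √2) = (x + y) / 2 := by field_simp
  have e2 : (√2 * y - √2 * x) / (2 * √2) = (y - x) / 2 := by field_simp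
  refine ⟨rfl, e1, e2, ?_⟩
  have : vT 0 s (√2 * x) (√2 * y) c 3 = c - s - (√2 * x + √2 * y) / (2 * √2) := rfl
  rw [this, e1]

end

end Vale.Agent.P224.R2.H166
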