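import Vale.Agent.P224.PO.IdX

/-!
Sums of squares with vectors for `m = 3`: the table of inner products.

Variables: 0 = s, 1 = τ, 2 = u, 3 = v, with `t = √2 (τ - u)`, `p = √2 (τ + u)`,
`c = s + τ + v`; vectors 1, …, 4: `x + y`, `x - y`, `√2 (N + w)`, `√2 (N - w)`.
-/

namespace Vale.Agent.P224.R2.H166

open Vale.Agent.P224.UE Vale.Agent.P224.POS Vale.Agent.P224.PO
open scoped RealInnerProductSpace

noncomputable section

/-- **Nonnegativity from a verified identity**, any table, any nonnegative multipliers. -/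
theorem pos_of_chkX {V : Type*} [NormedAddCommGroup V] [InnerProductSpace ℝ V] {Q : PE}
    {tab : List (List PE)} {L : List (PE × List BlkX)} {Ms : List ℕ} (k : Int) (hk : 0 ≤ k)
    (h : chkX Ms Q k tab L = true)
    (hsym : ∀ (f : ℕ → AZ) k l, PE.ev f (grT tab k l) = PE.ev f (grT tab l k))
    (hG : ∀ x ∈ L, GoodX x.2) {f : ℕ → ℝ} {v : ℕ → V} (hf : ∀ i, Ms.length + 10 ≤ i → f i = 0)
    (hv : IsGramT tab f v) (hm : ∀ x ∈ L, 0 ≤ PE.ev f x.1) : 0 ≤ PE.ev f Q := by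
  rw [ev_eq_of_chkX h hsym f hf]
  refine mul_nonneg (by exact_mod_cast hk) (rhsG_nonneg _ hv ?_ ?_)
  · intro y hy
    obtain ⟨x, hx, rfl⟩ := List.mem_map.1 hy
    exact hm x hx
  · intro y hy
    obtain ⟨x, hx, rfl⟩ := List.mem_map.1 hy
    exact goodX_toG (hG x hx)

/-- the multiplier `(q T - a) ^ k (b - q T) ^ l` -/
def mulT (q a b : Int) (k l : Nat) : PE :=
  .mul (.pow (.sub (.mul (.c q) (.v 4)) (.c a)) k) (.pow (.sub (.c b) (.mul (.c q) (.v 4))) l)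

lemma mulT_nonneg {f : ℕ → ℝ} {q a b : ℤ} (h1 : (a : ℝ) ≤ q * f 4) (h2 : (q : ℝ) * f 4 ≤ b)
    (k l : ℕ) : 0 ≤ PE.ev f (mulT q a b k l) := by
  unfold mulT
  rw [PE.ev_mul, PE.ev_pow, PE.ev_pow, PE.ev_sub, PE.ev_sub, PE.ev_mul, PE.ev_c, PE.ev_c, PE.ev_c,
    PE.ev_v]
  exact mul_nonneg (pow_nonneg (by linarith) _) (pow_nonneg (by linarith) _)

/-- `c = s + τ + v` -/
def pc : PE := .add (.v 0) (.add (.v 1) (.v 3))

/-- the table of inner products -/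
def tabT : List (List PE) :=
  [[.c 1, .c 0, .c 0, .c 0, .c 0],
   [.c 0, .add (.c 2) (.mul (.c 2) (.v 0)), .c 0, .mul (.c 4) (.v 1), .mul (.c 4) (.v 2)],
   [.c 0, .c 0, .sub (.c 2) (.mul (.c 2) (.v 0)), .mul (.c (-4)) (.v 2), .mul (.c (-4)) (.v 1)],
   [.c 0, .mul (.c 4) (.v 1), .mul (.c (-4)) (.v 2), .mul (.c 4) (.add (.c 1) pc), .c 0],
   [.c 0, .mul (.c 4) (.v 2), .mul (.c (-4)) (.v 1), .c 0, .mul (.c 4) (.sub (.c 1) pc)]]

lemma grT_tabT_ge {k l : ℕ} (h : 5 ≤ k ∨ 5 ≤ l) : grT tabT k l = PE.c 0 := by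
  unfold grT
  by_cases hk : 5 ≤ k
  · rw [lk_ge _ _ k (by simpa [tabT] using hk)]
    rfl
  · have hl : 5 ≤ l := h.resolve_left hk
    have hk' : k < 5 := not_le.1 hk
    have h6 : ∀ i < 5, (lk (fun _ => ([] : List PE)) tabT i).length = 5 := by
      intro i hi
      interval_cases i <;> rfl
    rw [lk_ge _ _ l (by rw [h6 k hk']; exact hl)]

lemma sym_tabT {R : Type*} [CommRing R] (f : ℕ → R) (k l : ℕ) :
    PE.ev f (grT tabT k l) = PE.ev f (grT tabT l k) := by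
  by_cases h : 5 ≤ k ∨ 5 ≤ l
  · rw [grT_tabT_ge h, grT_tabT_ge h.symm]
  · have hk : k < 5 := by omega
    have hl : l < 5 := by omega
    interval_cases k <;> interval_cases l <;> rfl

/-- the values of the variables -/
def vT (T s t p c : ℝ) (i : ℕ) : ℝ :=
  ([s, (t + p) / (2 * √2), (p - t) / (2 * √2), c - s - (t + p) / (2 * √2), T] : List ℝ).getD i 0

lemma vT_ge (T s t p c : ℝ) {i : ℕ} (h : 5 ≤ i) : vT T s t p c i = 0 := by
  unfold vT
  rw [List.getD_eq_default]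
  simpa using h

/-- the vectors -/
def vecT {E : Type*} [NormedAddCommGroup E] [InnerProductSpace ℝ E] (x N y w : E) (k : ℕ) : E :=
  ([0, x + y, x - y, √2 • (N + w), √2 • (N - w)] : List E).getD k 0

lemma vecT_ge {E : Type*} [NormedAddCommGroup E] [InnerProductSpace ℝ E] (x N y w : E) {k : ℕ}
    (h : 5 ≤ k) : vecT x N y w k = 0 := by
  unfold vecT
  rw [List.getD_eq_default]
  simpa using h

/-- the variables are the inner products -/
theorem isGramT_vT {E : Type*} [NormedAddCommGroup E] [InnerProductSpace ℝ E] {x N y w : E}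
    (hx : ‖x‖ = 1) (hN : ‖N‖ = 1) (hy : ‖y‖ = 1) (hw : ‖w‖ = 1) (hxN : ⟪x, N⟫ = 0)
    (hyw : ⟪y, w⟫ = 0) (T : ℝ) :
    IsGramT tabT (vT T ⟪x, y⟫ ⟪x, w⟫ ⟪N, y⟫ ⟪N, w⟫) (vecT x N y w) := by
  have h6 : √(2 : ℝ) ^ 2 = 2 := Real.sq_sqrt (by norm_num)
  have h20 : √(2 : ℝ) ≠ 0 := by positivity
  have hxx : ⟪x, x⟫ = 1 := by rw [real_inner_self_eq_norm_sq, hx]; norm_num
  have hNN : ⟪N, N⟫ = 1 := by rw [real_inner_self_eq_norm_sq, hN]; norm_num
  have hyy : ⟪y, y⟫ = 1 := by rw [real_inner_self_eq_norm_sq, hy]; norm_num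
  have hww : ⟪w, w⟫ = 1 := by rw [real_inner_self_eq_norm_sq, hw]; norm_num
  have hyx : ⟪y, x⟫ = ⟪x, y⟫ := real_inner_comm _ _
  have hwx : ⟪w, x⟫ = ⟪x, w⟫ := real_inner_comm _ _
  have hyN : ⟪y, N⟫ = ⟪N, y⟫ := real_inner_comm _ _
  have hwN : ⟪w, N⟫ = ⟪N, w⟫ := real_inner_comm _ _
  have hNx : ⟪N, x⟫ = 0 := by rw [real_inner_comm, hxN]
  have hwy : ⟪w, y⟫ = 0 := by rw [real_inner_comm, hyw]
  refine ⟨rfl, fun k l => ?_⟩
  by_cases h : 5 ≤ k ∨ 5 ≤ l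
  · rw [grT_tabT_ge h, PE.ev_c, Int.cast_zero]
    have h0 : ¬ (k = 0 ∧ l = 0) := by omega
    rw [if_neg h0]
    rcases h with h | h
    · rw [vecT_ge x N y w h, inner_zero_left]
    · rw [vecT_ge x N y w h, inner_zero_right]
  · have hk : k < 5 := by omega
    have hl : l < 5 := by omega
    have e1 : 4 * ((⟪x, w⟫ + ⟪N, y⟫) / (2 * √2)) = √2 * (⟪x, w⟫ + ⟪N, y⟫) := by
      field_simp
      rw [h6]; ring
    have e2 : 4 * ((⟪N, y⟫ - ⟪x, w⟫) / (2 * √2)) = √2 * (⟪N, y⟫ - ⟪x, w⟫) := by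
      field_simp
      rw [h6]; ring
    have v0 : vT T ⟪x, y⟫ ⟪x, w⟫ ⟪N, y⟫ ⟪N, w⟫ 0 = ⟪x, y⟫ := rfl
    have v1 : vT T ⟪x, y⟫ ⟪x, w⟫ ⟪N, y⟫ ⟪N, w⟫ 1 = (⟪x, w⟫ + ⟪N, y⟫) / (2 * √2) := rfl
    have v2 : vT T ⟪x, y⟫ ⟪x, w⟫ ⟪N, y⟫ ⟪N, w⟫ 2 = (⟪N, y⟫ - ⟪x, w⟫) / (2 * √2) := rfl
    have v3 : vT T ⟪x, y⟫ ⟪x, w⟫ ⟪N, y⟫ ⟪N, w⟫ 3 =
      ⟪N, w⟫ - ⟪x, y⟫ - (⟪x, w⟫ + ⟪N, y⟫) / (2 * √2) := rfl
    have w0 : vecT x N y w 0 = 0 := rfl
    have w1 : vecT x N y w 1 = x + y := rfl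
    have w2 : vecT x N y w 2 = x - y := rfl
    have w3 : vecT x N y w 3 = √2 • (N + w) := rfl
    have w4 : vecT x N y w 4 = √2 • (N - w) := rfl
    have h66 : √(2 : ℝ) * √2 = 2 := by rw [← pow_two, h6]
    have h6' : ∀ a : ℝ, √2 * (√2 * a) = 2 * a := by
      intro a
      rw [← mul_assoc, h66]
    interval_cases k <;> interval_cases l <;>
      simp only [grT, tabT, pc, lk_zero, lk_succ, PE.ev_c, PE.ev_v, PE.ev_sub, PE.ev_add,
        PE.ev_mul, v0, v1, v2, v3, w0, w1, w2, w3, w4, inner_zero_left, inner_zero_right,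
        inner_add_left, inner_add_right, inner_sub_left, inner_sub_right, real_inner_smul_left,
        real_inner_smul_right, hxx, hNN, hyy, hww, hyx, hwx, hyN, hwN, hNx, hwy, hxN, hyw,
        Int.cast_ofNat, Int.cast_zero, Int.cast_one, Int.cast_neg, OfNat.ofNat_ne_zero,
        one_ne_zero, and_self, and_false, false_and, if_true, if_false, reduceIte, h6', e1, e2]
    all_goals first
      | ring1
      | linear_combination e1
      | linear_combination e2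
      | linear_combination -e1
      | linear_combination -e2
      | linear_combination (-(2 + 2 * ⟪N, w⟫)) * h66
      | linear_combination (-(2 - 2 * ⟪N, w⟫)) * h66

lemma good_nil : ∀ x ∈ ([] : List (PE × List BlkX)), GoodX x.2 := by
  intro x hx
  exact absurd hx List.not_mem_nil

lemma good_cons {m : PE} {B : List BlkX} {L : List (PE × List BlkX)} (h : GoodX B)
    (hL : ∀ x ∈ L, GoodX x.2) : ∀ x ∈ (m, B) :: L, GoodX x.2 := by
  intro x hx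
  rcases List.mem_cons.1 hx with rfl | hx
  · exact h
  · exact hL x hx

lemma mult_nil {f : ℕ → ℝ} : ∀ x ∈ ([] : List (PE × List BlkX)), 0 ≤ PE.ev f x.1 := by
  intro x hx
  exact absurd hx List.not_mem_nil

lemma mult_cons {f : ℕ → ℝ} {m : PE} {B : List BlkX} {L : List (PE × List BlkX)}
    (h : 0 ≤ PE.ev f m) (hL : ∀ x ∈ L, 0 ≤ PE.ev f x.1) :
    ∀ x ∈ (m, B) :: L, 0 ≤ PE.ev f x.1 := by
  intro x hx
  rcases List.mem_cons.1 hx with rfl | hx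
  · exact h
  · exact hL x hx

end

end Vale.Agent.P224.R2.H166
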