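import Vale.Agent.P224.POS.MainE2
import Vale.Agent.P224.RIG.Iff
import Vale.Agent.P224.PO.Five.IffB
import Vale.Agent.P224.PO.M7.Iff
import Vale.Agent.P224.PO.M9.Iff
import Vale.Agent.P224.PO.M11.Iff
import Vale.Agent.P224.PO.M13.Iff
import Vale.Agent.P224.PO.M15.Iff
import Vale.Agent.P224.R2.H178.Inp3
import Vale.Agent.P224.R2.H758.Main2

/-!
**The sharp bound in the dimensions two to sixteen**, and its case of equality from dimension
three on.
-/

namespace Vale.Agent.P224.R2.H166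

open MeasureTheory Module Vale.Agent.P224
open scoped RealInnerProductSpace ENNReal ContDiff Manifold

set_option linter.unusedSectionVars false

variable {V W M : Type*} [NormedAddCommGroup V] [InnerProductSpace ℝ V] [FiniteDimensional ℝ V]
  [NormedAddCommGroup W] [InnerProductSpace ℝ W] [FiniteDimensional ℝ W]
  [TopologicalSpace M] [ChartedSpace V M]
  [MeasurableSpace V] [BorelSpace V] [MeasurableSpace M] [BorelSpace M]
  [IsManifold 𝓘(ℝ, V) ∞ M] [CompactSpace M] [T2Space M] [ConnectedSpace M]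
  [MeasurableSpace W] [BorelSpace W]

/-- **The sharp bound and its case of equality in the dimensions three to sixteen.** -/
theorem sharp16 (h3 : 3 ≤ finrank ℝ V) (h16 : finrank ℝ V ≤ 16)
    (hW : finrank ℝ W = finrank ℝ V + 2) {F : M → W} (hF : SphImm V F)
    (hmin : ∀ x n, IsUnitNormal V F x n → meanCurv V F x n = 0)
    (hng : ¬ ∃ a : W, a ≠ 0 ∧ ∀ x, ⟪F x, a⟫ = 0) :
    ENNReal.ofReal (leastClifford (finrank ℝ V)) ≤ volM V F Set.univ ∧
      (volM V F Set.univ = ENNReal.ofReal (leastClifford (finrank ℝ V)) ↔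
        Function.Injective F ∧ ∃ U : Submodule ℝ W, finrank ℝ U = finrank ℝ V / 2 + 1 ∧
          Set.range F =
            {z | ‖U.starProjection z‖ ^ 2 = ((finrank ℝ V / 2 : ℕ) : ℝ) / finrank ℝ V ∧
              ‖z - U.starProjection z‖ ^ 2 =
                ((finrank ℝ V - finrank ℝ V / 2 : ℕ) : ℝ) / finrank ℝ V}) := by
  rcases Nat.even_or_odd (finrank ℝ V) with he | ho
  · have h4 : 4 ≤ finrank ℝ V := by
      obtain ⟨k, hk⟩ := he
      omega
    refine ⟨POS.mainE16 he h4 h16 hW hF hmin hng, ?_⟩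
    rw [RIG.vol_eq_iff he h4 h16 hW hF hmin hng]
    obtain ⟨k, hk⟩ := he
    have hk0 : (k : ℝ) ≠ 0 := by
      have : k ≠ 0 := by omega
      exact_mod_cast this
    have e1 : ((finrank ℝ V / 2 : ℕ) : ℝ) / finrank ℝ V = 1 / 2 := by
      rw [show finrank ℝ V / 2 = k by omega, hk]
      push_cast
      field_simp
      ring
    have e2 : ((finrank ℝ V - finrank ℝ V / 2 : ℕ) : ℝ) / finrank ℝ V = 1 / 2 := by
      rw [show finrank ℝ V - finrank ℝ V / 2 = k by omega, hk]
      push_cast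
      field_simp
      ring
    rw [e1, e2]
  have hcase : finrank ℝ V = 3 ∨ finrank ℝ V = 5 ∨ finrank ℝ V = 7 ∨ finrank ℝ V = 9 ∨
      finrank ℝ V = 11 ∨ finrank ℝ V = 13 ∨ finrank ℝ V = 15 := by
    have h0 := ho.pos
    obtain ⟨k, hk⟩ := ho
    omega
  rcases hcase with h | h | h | h | h | h | h
  · have := H433.three_inp H178.inp3 h hW hF hmin hng
    rw [h]
    exact this
  · have := PO.Five.five_iffB h hW hF hmin hng
    have e1 : ((5 / 2 : ℕ) : ℝ) / (5 : ℕ) = 2 / 5 := by norm_num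
    have e2 : ((5 - 5 / 2 : ℕ) : ℝ) / (5 : ℕ) = 3 / 5 := by norm_num
    rw [h, e1, e2]
    exact this
  · rw [h]
    exact PO.M7.iff h hW hF hmin hng
  · rw [h]
    exact PO.M9.iff h hW hF hmin hng
  · rw [h]
    exact PO.M11.iff h hW hF hmin hng
  · rw [h]
    exact PO.M13.iff h hW hF hmin hng
  · rw [h]
    exact PO.M15.iff h hW hF hmin hng

/-- **The sharp bound in the dimensions two to sixteen.** -/
theorem upto16 (h2 : 2 ≤ finrank ℝ V) (h16 : finrank ℝ V ≤ 16)
    (hW : finrank ℝ W = finrank ℝ V + 2) {F : M → W} (hF : SphImm V F)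
    (hmin : ∀ x n, IsUnitNormal V F x n → meanCurv V F x n = 0)
    (hng : ¬ ∃ a : W, a ≠ 0 ∧ ∀ x, ⟪F x, a⟫ = 0) :
    ENNReal.ofReal (leastClifford (finrank ℝ V)) ≤ volM V F Set.univ := by
  rcases Nat.lt_or_ge (finrank ℝ V) 3 with h | h
  · exact H758.main2 (by omega) hW hF hmin hng
  · exact (sharp16 h h16 hW hF hmin hng).1

end Vale.Agent.P224.R2.H166
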